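import Vale.Agent.P253.R2.H66.Weyl

/-!
# P253 (helper957): `L²` mean value estimate and `L²` removable singularities
-/

open Complex Filter Topology Set Metric MeasureTheory
open scoped ContDiff

noncomputable section

namespace Vale.Agent.P253.R2.H957

open Vale.Agent.P253.R2.H66

variable {F : Type*} [NormedAddCommGroup F] [NormedSpace ℂ F] [CompleteSpace F]

/-- `L²` mean value estimate -/
theorem l2_bound (F : Type*) [NormedAddCommGroup F] [NormedSpace ℂ F] [CompleteSpace F] :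
    ∃ K : ℝ, 0 < K ∧ ∀ {W : ℂ → F} {z : ℂ} {r : ℝ}, 0 < r →
    DifferentiableOn ℂ W (ball z r) → IntegrableOn (fun w => ‖W w‖ ^ 2) (ball z r) →
    ‖W z‖ ^ 2 ≤ K / r ^ 2 * ∫ w in ball z r, ‖W w‖ ^ 2 := by
  set a : ℝ := ∫ v, Weyl.molR 1 v with ha
  set b : ℝ := ∫ v, Weyl.molR 1 v ^ 2 with hb
  have ha0 : 0 < a := Weyl.molR_pos one_pos
  have hb0 : 0 < b := by
    have hc : Continuous fun v => Weyl.molR 1 v ^ 2 := (Weyl.molR_contDiff 1).continuous.pow 2
    apply hc.integral_pos_of_hasCompactSupport_nonneg_nonzero (x := 0)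
    · refine (Weyl.molR_hasCompactSupport one_pos).mono' (fun v hv => subset_tsupport _ ?_)
      intro h
      apply hv
      simp only [h]
      norm_num
    · intro v; positivity
    · simp [Weyl.molR, Weyl.mol]
  refine ⟨4 * b / a ^ 2, by positivity, fun {W z r} hr hW hint => ?_⟩
  have hr2 : 0 < r / 2 := by positivity
  set κ : ℂ → ℝ := Weyl.molR (r / 2) with hκ
  have hκc : Continuous κ := (Weyl.molR_contDiff _).continuous
  have hκs : HasCompactSupport κ := Weyl.molR_hasCompactSupport hr2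
  have hκt : tsupport κ ⊆ ball 0 r :=
    (Weyl.molR_tsupport hr2).trans (closedBall_subset_ball (by linarith))
  have hscale : ∀ v, κ v = Weyl.molR 1 ((r / 2)⁻¹ • v) := by
    intro v
    simp [hκ, Weyl.molR]
  have hA : ∫ v, κ v = (r / 2) ^ 2 * a := by
    simp only [hscale]
    rw [Measure.integral_comp_smul_of_nonneg volume (fun v => Weyl.molR 1 v) (r / 2)⁻¹
      (hR := by positivity), Complex.finrank_real_complex, ← ha, inv_pow, inv_inv, smul_eq_mul]
  have hB : ∫ v, κ v ^ 2 = (r / 2) ^ 2 * b := by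
    simp only [hscale]
    rw [Measure.integral_comp_smul_of_nonneg volume (fun v => Weyl.molR 1 v ^ 2) (r / 2)⁻¹
      (hR := by positivity), Complex.finrank_real_complex, ← hb, inv_pow, inv_inv, smul_eq_mul]
  -- translation
  set V : ℂ → F := fun v => W (z + v) with hV
  have hVd : DifferentiableOn ℂ V (ball 0 r) := by
    refine hW.comp (by fun_prop) fun v hv => ?_
    rw [mem_ball, dist_eq_norm, add_sub_cancel_left]
    simpa using hv
  have hmp : MeasurePreserving (fun v : ℂ => z + v) volume volume :=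
    measurePreserving_add_left volume z
  have hpre : (fun v : ℂ => z + v) ⁻¹' ball z r = ball 0 r := by
    ext v
    simp [mem_ball, dist_eq_norm]
  have hemb : MeasurableEmbedding (fun v : ℂ => z + v) := measurableEmbedding_addLeft z
  have hVint : IntegrableOn (fun v => ‖V v‖ ^ 2) (ball 0 r) := by
    have := (hmp.integrableOn_comp_preimage hemb (f := fun w => ‖W w‖ ^ 2) (s := ball z r)).2 hint
    rw [hpre] at this
    exact this
  have hS : ∫ v in ball 0 r, ‖V v‖ ^ 2 = ∫ w in ball z r, ‖W w‖ ^ 2 := by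
    have := hmp.setIntegral_preimage_emb hemb (fun w => ‖W w‖ ^ 2) (ball z r)
    rw [hpre] at this
    exact this
  rw [← hS]
  set S := ∫ v in ball 0 r, ‖V v‖ ^ 2 with hSdef
  have hmean : ∫ v, κ v • V v = (∫ v, κ v) • V 0 :=
    Weyl.integral_circled hVd hκc hκs hκt fun c v hc => Weyl.molR_circ _ _ _ hc
  have hV0 : V 0 = W z := by simp [hV]
  have hκ0 : ∀ v, 0 ≤ κ v := fun v => Weyl.mol_nonneg _
  -- basic inequality
  have hx : ∀ t : ℝ, 0 ≤ t → 2 * t * ((r / 2) ^ 2 * a * ‖W z‖) ≤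
      t ^ 2 * ((r / 2) ^ 2 * b) + S := by
    intro t ht
    have h1 : (r / 2) ^ 2 * a * ‖W z‖ ≤ ∫ v, κ v * ‖V v‖ := by
      rw [← hA, ← hV0]
      have h2 : ‖(∫ v, κ v) • V 0‖ = (∫ v, κ v) * ‖V 0‖ := by
        rw [norm_smul, Real.norm_eq_abs, abs_of_nonneg (integral_nonneg hκ0)]
      rw [← h2, ← hmean]
      refine (norm_integral_le_integral_norm _).trans (le_of_eq ?_)
      congr 1; funext v
      rw [norm_smul, Real.norm_eq_abs, abs_of_nonneg (hκ0 v)]
    have hrestr : ∫ v, κ v * ‖V v‖ = ∫ v in ball 0 r, κ v * ‖V v‖ := by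
      rw [setIntegral_eq_integral_of_forall_compl_eq_zero]
      intro v hv
      rw [image_eq_zero_of_notMem_tsupport (fun h => hv (hκt h)), zero_mul]
    have hκ2 : ∫ v in ball 0 r, κ v ^ 2 = (r / 2) ^ 2 * b := by
      rw [← hB, setIntegral_eq_integral_of_forall_compl_eq_zero]
      intro v hv
      rw [image_eq_zero_of_notMem_tsupport (fun h => hv (hκt h))]
      norm_num
    have hi2 : Integrable (fun v => κ v ^ 2) := by
      refine (hκc.pow 2).integrable_of_hasCompactSupport ?_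
      refine hκs.mono' (fun v hv => subset_tsupport _ ?_)
      intro h
      apply hv
      change κ v ^ 2 = 0
      rw [h]
      norm_num
    have hVc : ContinuousOn V (ball 0 r) := hVd.continuousOn
    have hi1 : IntegrableOn (fun v => κ v * ‖V v‖) (ball 0 r) := by
      have hsum : IntegrableOn (fun v => κ v ^ 2 + ‖V v‖ ^ 2) (ball 0 r) :=
        hi2.integrableOn.add hVint
      refine Integrable.mono' hsum
        ((hκc.continuousOn.mul hVc.norm).aestronglyMeasurable measurableSet_ball) ?_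
      filter_upwards with v
      rw [Real.norm_eq_abs, abs_of_nonneg (mul_nonneg (hκ0 v) (norm_nonneg _))]
      nlinarith [sq_nonneg (κ v - ‖V v‖), hκ0 v, norm_nonneg (V v)]
    calc 2 * t * ((r / 2) ^ 2 * a * ‖W z‖) ≤ 2 * t * ∫ v in ball 0 r, κ v * ‖V v‖ := by
          rw [← hrestr]; gcongr
      _ = ∫ v in ball 0 r, 2 * t * (κ v * ‖V v‖) := by rw [integral_const_mul]
      _ ≤ ∫ v in ball 0 r, (t ^ 2 * κ v ^ 2 + ‖V v‖ ^ 2) := by
          refine setIntegral_mono (hi1.const_mul _) ((hi2.integrableOn.const_mul _).add hVint) ?_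
          intro v
          have := sq_nonneg (t * κ v - ‖V v‖)
          simp only
          nlinarith
      _ = t ^ 2 * ((r / 2) ^ 2 * b) + S := by
          rw [integral_add (hi2.integrableOn.const_mul _) hVint, integral_const_mul, hκ2]
  have hS0 : 0 ≤ S := integral_nonneg fun v => by positivity
  set X := ‖W z‖ with hX
  have hX0 : 0 ≤ X := norm_nonneg _
  -- optimal t
  have h1 := hx (a * X / b) (by positivity)
  have h2 : 2 * (a * X / b) * ((r / 2) ^ 2 * a * X) - (a * X / b) ^ 2 * ((r / 2) ^ 2 * b)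
      = (r / 2) ^ 2 * a ^ 2 * X ^ 2 / b := by
    field_simp
    ring
  have h3 : (r / 2) ^ 2 * a ^ 2 * X ^ 2 / b ≤ S := by linarith
  have h4 : 4 * b / a ^ 2 / r ^ 2 * ((r / 2) ^ 2 * a ^ 2 * X ^ 2 / b) = X ^ 2 := by
    field_simp
    ring
  calc X ^ 2 = 4 * b / a ^ 2 / r ^ 2 * ((r / 2) ^ 2 * a ^ 2 * X ^ 2 / b) := h4.symm
    _ ≤ 4 * b / a ^ 2 / r ^ 2 * S := by gcongr

/-- the `L²` norm on small punctured discs tends to `0` -/
theorem exists_small_integral {f : ℂ → ℝ} {R : ℝ} (hR : 0 < R)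
    (hint : IntegrableOn f (ball 0 R \ {0})) {ε : ℝ} (hε : 0 < ε) :
    ∃ δ > 0, δ ≤ R ∧ |∫ z in ball 0 δ \ {0}, f z| < ε := by
  have h := tendsto_setIntegral_of_antitone (μ := volume) (f := f)
    (s := fun n : ℕ => ball (0 : ℂ) (R / (n + 1)) \ {0})
    (fun n => measurableSet_ball.diff (measurableSet_singleton _))
    (fun m n hmn => by
      apply sdiff_subset_sdiff_left
      apply ball_subset_ball
      have : (m : ℝ) ≤ n := by exact_mod_cast hmn
      gcongr) ⟨0, by simpa using hint⟩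
  have hinter : (⋂ n : ℕ, ball (0 : ℂ) (R / (n + 1)) \ {0}) = ∅ := by
    rw [Set.eq_empty_iff_forall_notMem]
    intro z hz
    rw [mem_iInter] at hz
    have h0 : z ≠ 0 := (hz 0).2
    have hz0 : 0 < ‖z‖ := norm_pos_iff.2 h0
    obtain ⟨n, hn⟩ := exists_nat_gt (R / ‖z‖)
    have h1 := (hz n).1
    rw [mem_ball_zero_iff, lt_div_iff₀ (by positivity)] at h1
    rw [div_lt_iff₀ hz0] at hn
    nlinarith
  rw [hinter] at h
  simp only [setIntegral_empty] at h
  obtain ⟨n, hn⟩ := ((Metric.tendsto_nhds.1 h ε hε)).exists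
  refine ⟨R / (n + 1), by positivity, ?_, ?_⟩
  · apply div_le_self hR.le
    have : (0 : ℝ) ≤ n := n.cast_nonneg
    linarith
  · simpa using hn

/-- **`L²` removable singularities** -/
theorem l2_removable {W : ℂ → F} {R : ℝ} (hR : 0 < R)
    (hW : DifferentiableOn ℂ W (ball 0 R \ {0}))
    (hint : IntegrableOn (fun z => ‖W z‖ ^ 2) (ball 0 R \ {0})) :
    ∃ W' : ℂ → F, DifferentiableOn ℂ W' (ball 0 R) ∧ EqOn W' W (ball 0 R \ {0}) := by
  obtain ⟨K, hK, hKb⟩ := l2_bound F
  refine ⟨Function.update W 0 (limUnder (𝓝[≠] 0) W), ?_, fun z hz => ?_⟩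
  swap
  · exact Function.update_of_ne hz.2 _ _
  apply Complex.differentiableOn_update_limUnder_of_isLittleO (ball_mem_nhds _ hR) hW
  simp only [sub_zero]
  have hconst : (fun _ : ℂ => W 0) =o[𝓝[≠] 0] fun z : ℂ => z⁻¹ := by
    rw [Asymptotics.isLittleO_const_left]
    right
    exact tendsto_norm_inv_nhdsNE_zero_atTop
  refine Asymptotics.IsLittleO.sub ?_ hconst
  rw [Asymptotics.isLittleO_iff]
  intro c hc
  obtain ⟨δ, hδ, hδR, hδi⟩ := exists_small_integral hR hint (ε := c ^ 2 / (4 * K))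
    (by positivity)
  have hev : ∀ᶠ z : ℂ in 𝓝[≠] 0, z ∈ ball (0 : ℂ) (δ / 2) :=
    mem_nhdsWithin_of_mem_nhds (ball_mem_nhds _ (by positivity))
  filter_upwards [hev, self_mem_nhdsWithin] with z hz hz0
  rw [mem_ball_zero_iff] at hz
  have hzp : 0 < ‖z‖ := norm_pos_iff.2 hz0
  have hsub : ball z (‖z‖ / 2) ⊆ ball 0 δ \ {0} := by
    intro w hw
    rw [mem_ball, dist_eq_norm] at hw
    constructor
    · rw [mem_ball_zero_iff]
      have := norm_le_norm_sub_add w z
      linarith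
    · intro h
      rw [mem_singleton_iff] at h
      rw [h, zero_sub, norm_neg] at hw
      linarith
  have hsub' : ball z (‖z‖ / 2) ⊆ ball 0 R \ {0} :=
    hsub.trans (sdiff_subset_sdiff_left (ball_subset_ball hδR))
  have h1 := hKb (W := W) (z := z) (r := ‖z‖ / 2) (by positivity) (hW.mono hsub')
    (hint.mono_set hsub')
  have h2 : ∫ w in ball z (‖z‖ / 2), ‖W w‖ ^ 2 ≤ ∫ w in ball 0 δ \ {0}, ‖W w‖ ^ 2 := by
    refine setIntegral_mono_set (hint.mono_set (sdiff_subset_sdiff_left (ball_subset_ball hδR)))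
      ?_ hsub.eventuallyLE
    filter_upwards with w
    exact sq_nonneg _
  have h3 : ∫ w in ball 0 δ \ {0}, ‖W w‖ ^ 2 < c ^ 2 / (4 * K) := (le_abs_self _).trans_lt hδi
  have h4 : ‖W z‖ ^ 2 ≤ (c * ‖z⁻¹‖) ^ 2 := by
    calc ‖W z‖ ^ 2 ≤ K / (‖z‖ / 2) ^ 2 * ∫ w in ball z (‖z‖ / 2), ‖W w‖ ^ 2 := h1
      _ ≤ K / (‖z‖ / 2) ^ 2 * (c ^ 2 / (4 * K)) := by
          gcongr
          exact h2.trans h3.le
      _ = (c * ‖z⁻¹‖) ^ 2 := by
          rw [norm_inv]
          field_simp
          ring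
  exact le_of_sq_le_sq h4 (by positivity)

end Vale.Agent.P253.R2.H957
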