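import Vale.Agent.P253.R2.H66.Hoer2
import Vale.Agent.P253.R2.H66.Germ
import Vale.Agent.P253.R2.H957.L2

/-!
# P253 (helper957): the germ module of holomorphic sections with a strong integrability property
and the `L²` lower bound outside of it
-/

open Complex Filter Topology Set Metric MeasureTheory
open scoped ContDiff InnerProductSpace

noncomputable section

namespace Vale.Agent.P253.R2.H957

open Vale.Agent.P253.R2.H66

variable {E : Type*} [NormedAddCommGroup E] [InnerProductSpace ℂ E]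

/-- the weighted square norm `⟨f, g f⟩` -/
def wq (g : ℂ → E →L[ℂ] E) (f : ℂ → E) (z : ℂ) : ℝ := (⟪f z, g z (f z)⟫_ℂ).re

/-- `g = G⁻¹` is a positive weight on the punctured ball, bounded below by `C⁻¹`. -/
structure IsWt (R C : ℝ) (G g : ℂ → E →L[ℂ] E) : Prop where
  pos : ∀ z ∈ ball (0 : ℂ) R \ {0}, 0 ≤ G z
  cont : ContinuousOn g (ball (0 : ℂ) R \ {0})
  right : ∀ z ∈ ball (0 : ℂ) R \ {0}, ∀ v, G z (g z v) = v
  left : ∀ z ∈ ball (0 : ℂ) R \ {0}, ∀ v, g z (G z v) = v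
  bound : ∀ z ∈ ball (0 : ℂ) R \ {0}, ‖G z‖ ≤ C

section pointwise

variable [CompleteSpace E]

theorem wq_eq {A h : E →L[ℂ] E} (hA : 0 ≤ A) (hAh : ∀ v, A (h v) = v) (v : E) :
    (⟪v, h v⟫_ℂ).re = ‖CFC.sqrt A (h v)‖ ^ 2 := by
  obtain ⟨hs, hss⟩ := sqrt_facts hA
  rw [← inner_self_eq_norm_sq (𝕜 := ℂ), ← hs, hss, hAh]; rfl

theorem norm_sqrt_sq {A : E →L[ℂ] E} (hA : 0 ≤ A) : ‖CFC.sqrt A‖ ^ 2 = ‖A‖ := by
  have h1 : IsSelfAdjoint (CFC.sqrt A) := (CFC.sqrt_nonneg A).isSelfAdjoint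
  have h2 : CFC.sqrt A * CFC.sqrt A = A := CFC.sqrt_mul_sqrt_self A hA
  rw [sq, ← CStarRing.norm_star_mul_self, h1.star_eq, h2]

variable {R C : ℝ} {G g : ℂ → E →L[ℂ] E}

theorem IsWt.wq_nonneg (h : IsWt R C G g) {z : ℂ} (hz : z ∈ ball (0 : ℂ) R \ {0}) (f : ℂ → E) :
    0 ≤ wq g f z := by
  rw [wq, wq_eq (h.pos z hz) (h.right z hz)]
  positivity

theorem IsWt.norm_sq_le (h : IsWt R C G g) {z : ℂ} (hz : z ∈ ball (0 : ℂ) R \ {0}) (f : ℂ → E) :
    ‖f z‖ ^ 2 ≤ C * wq g f z := by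
  rw [wq, wq_eq (h.pos z hz) (h.right z hz)]
  obtain ⟨hs, hss⟩ := sqrt_facts (h.pos z hz)
  have h1 : f z = CFC.sqrt (G z) (CFC.sqrt (G z) (g z (f z))) := by rw [hss, h.right z hz]
  have h2 : ‖f z‖ ≤ ‖CFC.sqrt (G z)‖ * ‖CFC.sqrt (G z) (g z (f z))‖ := by
    conv_lhs => rw [h1]
    exact (CFC.sqrt (G z)).le_opNorm _
  calc ‖f z‖ ^ 2 ≤ (‖CFC.sqrt (G z)‖ * ‖CFC.sqrt (G z) (g z (f z))‖) ^ 2 := by gcongr
    _ = ‖G z‖ * ‖CFC.sqrt (G z) (g z (f z))‖ ^ 2 := by
        rw [mul_pow, norm_sqrt_sq (h.pos z hz)]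
    _ ≤ C * ‖CFC.sqrt (G z) (g z (f z))‖ ^ 2 := by
        gcongr
        exact h.bound z hz

theorem IsWt.wq_add (h : IsWt R C G g) {z : ℂ} (hz : z ∈ ball (0 : ℂ) R \ {0}) (f k : ℂ → E) :
    wq g (fun w => f w + k w) z ≤ 2 * wq g f z + 2 * wq g k z := by
  have e1 := wq_eq (h.pos z hz) (h.right z hz) (f z + k z)
  have e2 := wq_eq (h.pos z hz) (h.right z hz) (f z)
  have e3 := wq_eq (h.pos z hz) (h.right z hz) (k z)
  simp only [wq]
  rw [e1, e2, e3, map_add, map_add]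
  have h1 := norm_add_le (CFC.sqrt (G z) (g z (f z))) (CFC.sqrt (G z) (g z (k z)))
  have h2 := norm_nonneg (CFC.sqrt (G z) (g z (f z)) + CFC.sqrt (G z) (g z (k z)))
  nlinarith [sq_nonneg (‖CFC.sqrt (G z) (g z (f z))‖ - ‖CFC.sqrt (G z) (g z (k z))‖)]

end pointwise

theorem wq_smul (g : ℂ → E →L[ℂ] E) (a : ℂ → ℂ) (f : ℂ → E) (z : ℂ) :
    wq g (fun w => a w • f w) z = ‖a z‖ ^ 2 * wq g f z := by
  simp only [wq, map_smul, inner_smul_left, inner_smul_right]
  rw [← mul_assoc]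
  have h1 : (starRingEnd ℂ) (a z) * a z = ((‖a z‖ ^ 2 : ℝ) : ℂ) := by
    rw [Complex.conj_mul']
    push_cast; ring
  rw [mul_comm (a z), h1, Complex.re_ofReal_mul]

theorem continuousOn_wq {g : ℂ → E →L[ℂ] E} {f : ℂ → E} {s : Set ℂ} (hg : ContinuousOn g s)
    (hf : ContinuousOn f s) : ContinuousOn (wq g f) s :=
  Complex.continuous_re.comp_continuousOn (hf.inner (hg.clm_apply hf))

theorem aesm_wq {g : ℂ → E →L[ℂ] E} {f : ℂ → E} {r : ℝ} (b : ℝ)
    (hg : ContinuousOn g (ball 0 r \ {0})) (hf : ContinuousOn f (ball 0 r \ {0})) :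
    AEStronglyMeasurable (fun z => wq g f z * ‖z‖ ^ b) (volume.restrict (ball 0 r \ {0})) := by
  have h1 := (continuousOn_wq hg hf).aestronglyMeasurable
    (measurableSet_ball.diff (measurableSet_singleton _)) (μ := volume)
  exact h1.mul (measurable_norm.pow_const b).aestronglyMeasurable

/-- the integrability property: some gain over the critical exponent `-2` -/
def GP (g : ℂ → E →L[ℂ] E) (f : ℂ → E) : Prop :=
  AnalyticAt ℂ f 0 ∧ ∃ ε : ℝ, 0 < ε ∧ ∃ r : ℝ, 0 < r ∧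
    IntegrableOn (fun z => wq g f z * ‖z‖ ^ (-(2 + ε))) (ball 0 r \ {0})

theorem rpow_mono_exp {z : ℂ} (hz : z ≠ 0) (hz1 : ‖z‖ ≤ 1) {ε ε' : ℝ} (h : ε' ≤ ε) :
    ‖z‖ ^ (-(2 + ε')) ≤ ‖z‖ ^ (-(2 + ε)) :=
  Real.rpow_le_rpow_of_exponent_ge (norm_pos_iff.2 hz) hz1 (by linarith)

/-- smaller exponent gain and radius -/
theorem intOn_mono {q : ℂ → ℝ} {ε ε' r r' : ℝ} (h : ε' ≤ ε) (hr : r' ≤ r) (hr1 : r' ≤ 1)
    (hi : IntegrableOn (fun z => q z * ‖z‖ ^ (-(2 + ε))) (ball 0 r \ {0})) :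
    IntegrableOn (fun z => q z * ‖z‖ ^ (-(2 + ε'))) (ball 0 r' \ {0}) := by
  have h1 : IntegrableOn (fun z => q z * ‖z‖ ^ (-(2 + ε))) (ball 0 r' \ {0}) :=
    hi.mono_set (sdiff_subset_sdiff_left (ball_subset_ball hr))
  have hm : MeasurableSet (ball (0 : ℂ) r' \ {0}) :=
    measurableSet_ball.diff (measurableSet_singleton _)
  have h2 : IntegrableOn (fun z => ‖z‖ ^ (ε - ε') * (q z * ‖z‖ ^ (-(2 + ε))))
      (ball 0 r' \ {0}) := by
    refine Integrable.bdd_mul (c := 1) h1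
      (measurable_norm.pow_const (ε - ε')).aestronglyMeasurable ?_
    filter_upwards [ae_restrict_mem hm] with z hz
    have h3 : ‖z‖ ≤ 1 := ((mem_ball_zero_iff.1 hz.1).le).trans hr1
    rw [Real.norm_eq_abs, abs_of_nonneg (by positivity)]
    exact Real.rpow_le_one (norm_nonneg _) h3 (by linarith)
  refine h2.congr_fun (fun z hz => ?_) hm
  have hz0 : 0 < ‖z‖ := norm_pos_iff.2 hz.2
  simp only
  rw [mul_comm, mul_assoc, ← Real.rpow_add hz0]
  congr 2
  ring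

section module

variable [CompleteSpace E]
variable {R C : ℝ} {G g : ℂ → E →L[ℂ] E}

theorem exists_cont_radius {f : ℂ → E} (hf : AnalyticAt ℂ f 0) :
    ∃ r > 0, ContinuousOn f (ball 0 r) := by
  obtain ⟨r, hr, hsub⟩ := Metric.eventually_nhds_iff_ball.1 hf.eventually_analyticAt
  exact ⟨r, hr, fun z hz => (hsub z hz).continuousAt.continuousWithinAt⟩

omit [CompleteSpace E] in
theorem GP.congr {f k : ℂ → E} (h : f =ᶠ[𝓝 0] k) (hf : GP g f) : GP g k := by
  obtain ⟨ha, ε, hε, r, hr, hi⟩ := hf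
  refine ⟨ha.congr h, ε, hε, ?_⟩
  obtain ⟨s, hs, hsub⟩ := Metric.eventually_nhds_iff_ball.1 h
  refine ⟨min r s, lt_min hr hs, ?_⟩
  have h1 : IntegrableOn (fun z => wq g f z * ‖z‖ ^ (-(2 + ε))) (ball 0 (min r s) \ {0}) :=
    hi.mono_set (sdiff_subset_sdiff_left (ball_subset_ball (min_le_left _ _)))
  refine h1.congr_fun (fun z hz => ?_) (measurableSet_ball.diff (measurableSet_singleton _))
  have h2 : f z = k z := hsub z (ball_subset_ball (min_le_right _ _) hz.1)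
  simp only [wq, h2]

theorem GP.add (hw : IsWt R C G g) (hR : 0 < R) {f k : ℂ → E} (hf : GP g f) (hk : GP g k) :
    GP g (fun z => f z + k z) := by
  obtain ⟨ha, ε, hε, r, hr, hi⟩ := hf
  obtain ⟨ha', ε', hε', r', hr', hi'⟩ := hk
  refine ⟨ha.add ha', min ε ε', lt_min hε hε', ?_⟩
  obtain ⟨s, hs, hsc⟩ := exists_cont_radius (ha.add ha')
  set ρ := min (min (min r r') (min s R)) 1 with hρ
  have hρ0 : 0 < ρ := by positivity
  have hρr : ρ ≤ r := by simp [hρ]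
  have hρr' : ρ ≤ r' := by simp [hρ]
  have hρs : ρ ≤ s := by simp [hρ]
  have hρR : ρ ≤ R := by simp [hρ]
  have hρ1 : ρ ≤ 1 := by simp [hρ]
  refine ⟨ρ, hρ0, ?_⟩
  have h1 := intOn_mono (ε' := min ε ε') (min_le_left _ _) hρr hρ1 hi
  have h2 := intOn_mono (ε' := min ε ε') (min_le_right _ _) hρr' hρ1 hi'
  have hsum : IntegrableOn (fun z => 2 * (wq g f z * ‖z‖ ^ (-(2 + min ε ε'))) +
      2 * (wq g k z * ‖z‖ ^ (-(2 + min ε ε')))) (ball 0 ρ \ {0}) :=
    (h1.const_mul 2).add (h2.const_mul 2)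
  refine Integrable.mono' hsum (aesm_wq _ (hw.cont.mono (sdiff_subset_sdiff_left
    (ball_subset_ball hρR))) (hsc.mono (sdiff_subset.trans (ball_subset_ball hρs)))) ?_
  filter_upwards [ae_restrict_mem (measurableSet_ball.diff (measurableSet_singleton _))] with z hz
  have hz' : z ∈ ball (0 : ℂ) R \ {0} := ⟨ball_subset_ball hρR hz.1, hz.2⟩
  have h3 := hw.wq_add hz' f k
  have h4 := hw.wq_nonneg hz' (fun z => f z + k z)
  have h5 : 0 ≤ ‖z‖ ^ (-(2 + min ε ε')) := by positivity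
  rw [Real.norm_eq_abs, abs_of_nonneg (mul_nonneg h4 h5)]
  nlinarith

theorem GP.smul (hw : IsWt R C G g) (hR : 0 < R) {a : ℂ → ℂ} {f : ℂ → E}
    (ha : AnalyticAt ℂ a 0) (hf : GP g f) : GP g (fun z => a z • f z) := by
  obtain ⟨hfa, ε, hε, r, hr, hi⟩ := hf
  refine ⟨ha.smul hfa, ε, hε, ?_⟩
  obtain ⟨s, hs, hsc⟩ := exists_cont_radius (ha.smul hfa)
  have hb : ∀ᶠ z in 𝓝 (0 : ℂ), ‖a z‖ ≤ ‖a 0‖ + 1 := by
    have := ha.continuousAt.norm.eventually (gt_mem_nhds (show ‖a 0‖ < ‖a 0‖ + 1 by linarith))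
    exact this.mono fun z hz => hz.le
  obtain ⟨t, ht, htb⟩ := Metric.eventually_nhds_iff_ball.1 hb
  set ρ := min (min r t) (min s R) with hρ
  have hρ0 : 0 < ρ := by positivity
  have hρr : ρ ≤ r := by simp [hρ]
  have hρt : ρ ≤ t := by simp [hρ]
  have hρs : ρ ≤ s := by simp [hρ]
  have hρR : ρ ≤ R := by simp [hρ]
  refine ⟨ρ, hρ0, ?_⟩
  have h1 : IntegrableOn (fun z => wq g f z * ‖z‖ ^ (-(2 + ε))) (ball 0 ρ \ {0}) :=
    hi.mono_set (sdiff_subset_sdiff_left (ball_subset_ball hρr))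
  have h2 : IntegrableOn (fun z => (‖a 0‖ + 1) ^ 2 * (wq g f z * ‖z‖ ^ (-(2 + ε))))
    (ball 0 ρ \ {0}) := h1.const_mul _
  refine Integrable.mono' h2 (aesm_wq _ (hw.cont.mono (sdiff_subset_sdiff_left
    (ball_subset_ball hρR))) (hsc.mono (sdiff_subset.trans (ball_subset_ball hρs)))) ?_
  filter_upwards [ae_restrict_mem (measurableSet_ball.diff (measurableSet_singleton _))] with z hz
  have hz' : z ∈ ball (0 : ℂ) R \ {0} := ⟨ball_subset_ball hρR hz.1, hz.2⟩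
  have h3 := hw.wq_nonneg hz' f
  have h4 := hw.wq_nonneg hz' (fun z => a z • f z)
  have h5 : 0 ≤ ‖z‖ ^ (-(2 + ε)) := by positivity
  rw [Real.norm_eq_abs, abs_of_nonneg (mul_nonneg h4 h5), wq_smul, mul_assoc]
  have h6 : ‖a z‖ ≤ ‖a 0‖ + 1 := htb z (ball_subset_ball hρt hz.1)
  have h7 : 0 ≤ wq g f z * ‖z‖ ^ (-(2 + ε)) := mul_nonneg h3 h5
  gcongr

/-- `GP g` is a module of germs, in coordinates -/
theorem isGermModule (hw : IsWt R C G g) (hR : 0 < R) {n : ℕ} (L : (Fin n → ℂ) ≃L[ℂ] E) :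
    IsGermModule (fun F : ℂ → Fin n → ℂ => GP g (fun z => L (F z))) where
  analytic f hf := by
    have h1 : AnalyticAt ℂ (fun z => L.symm (L (f z))) 0 :=
      (L.symm.analyticAt _).comp hf.1
    simpa using h1
  congr f k h hf := hf.congr (h.mono fun z hz => by simp only [hz])
  add f k hf hk := by
    simp only [map_add]
    exact hf.add hw hR hk
  smul a f ha hf := by
    simp only [map_smul]
    exact hf.smul hw hR ha

/-- the module `GP g` is closed -/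
theorem GP.closed [FiniteDimensional ℂ E] (hw : IsWt R C G g) (hR : 0 < R) {r : ℝ} (hr : 0 < r)
    {F : ℕ → ℂ → E} {f : ℂ → E} (hF : ∀ j, DifferentiableOn ℂ (F j) (ball 0 r))
    (hPF : ∀ j, GP g (F j)) (hlim : TendstoUniformlyOn F f atTop (ball 0 r)) : GP g f := by
  let L : (Fin (Module.finrank ℂ E) → ℂ) ≃L[ℂ] E :=
    (Module.finBasis ℂ E).equivFun.symm.toContinuousLinearEquiv
  have h := germ_closed (isGermModule hw hR L) hr (F := fun j z => L.symm (F j z))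
    (f := fun z => L.symm (f z)) (fun j => L.symm.differentiable.comp_differentiableOn (hF j))
    (fun j => by simpa using hPF j) ((L.symm : E →L[ℂ] (Fin (Module.finrank ℂ E) → ℂ)).uniformContinuous.comp_tendstoUniformlyOn
      hlim)
  simpa using h

/-- **the lower bound** -/
theorem exists_lower_bound [FiniteDimensional ℂ E] (hw : IsWt R C G g) (hR : 0 < R)
    {V : ℂ → E} (hV : DifferentiableOn ℂ V (ball 0 R)) (hPV : ¬ GP g V) :
    ∃ m > 0, ∀ W : ℂ → E, DifferentiableOn ℂ W (ball 0 R) → GP g (fun z => W z - V z) →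
      IntegrableOn (wq g W) (ball 0 R \ {0}) → m ≤ ∫ z in ball 0 R \ {0}, wq g W z := by
  by_contra hcon
  push Not at hcon
  apply hPV
  have hCC : 0 < |C| + 1 := by positivity
  choose W hW hWP hWi hWm using fun j : ℕ => hcon (1 / ((j : ℝ) + 1)) (by positivity)
  obtain ⟨K, hK, hKb⟩ := l2_bound E
  have hm : MeasurableSet (ball (0 : ℂ) R \ {0}) :=
    measurableSet_ball.diff (measurableSet_singleton _)
  have hae : (ball (0 : ℂ) R \ {0} : Set ℂ) =ᵐ[volume] ball 0 R :=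
    sdiff_null_ae_eq_self (measure_singleton _)
  have hle : ∀ j, ∀ z ∈ ball (0 : ℂ) R \ {0}, ‖W j z‖ ^ 2 ≤ (|C| + 1) * wq g (W j) z := by
    intro j z hz
    have h1 := hw.norm_sq_le hz (W j)
    have h2 := hw.wq_nonneg hz (W j)
    have h3 := le_abs_self C
    nlinarith
  have hi2 : ∀ j, IntegrableOn (fun z => ‖W j z‖ ^ 2) (ball 0 R \ {0}) := by
    intro j
    refine Integrable.mono' ((hWi j).const_mul (|C| + 1))
      ((((hW j).continuousOn.mono sdiff_subset).norm.pow 2).aestronglyMeasurable hm) ?_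
    filter_upwards [ae_restrict_mem hm] with z hz
    rw [Real.norm_eq_abs, abs_of_nonneg (by positivity)]
    exact hle j z hz
  have hi3 : ∀ j, IntegrableOn (fun z => ‖W j z‖ ^ 2) (ball 0 R) := fun j =>
    (hi2 j).congr_set_ae hae.symm
  have hsmall : ∀ j, ∫ z in ball 0 R, ‖W j z‖ ^ 2 ≤ (|C| + 1) * (1 / ((j : ℝ) + 1)) := by
    intro j
    rw [← setIntegral_congr_set hae]
    calc ∫ z in ball 0 R \ {0}, ‖W j z‖ ^ 2
        ≤ ∫ z in ball 0 R \ {0}, (|C| + 1) * wq g (W j) z :=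
          setIntegral_mono_on (hi2 j) ((hWi j).const_mul _) hm (hle j)
      _ = (|C| + 1) * ∫ z in ball 0 R \ {0}, wq g (W j) z := integral_const_mul _ _
      _ ≤ _ := by
          gcongr
          exact (hWm j).le
  -- pointwise bounds
  have hbd : ∀ j, ∀ z ∈ ball (0 : ℂ) (R / 2),
      ‖W j z‖ ^ 2 ≤ K / (R / 2) ^ 2 * ((|C| + 1) * (1 / ((j : ℝ) + 1))) := by
    intro j z hz
    have hsub : ball z (R / 2) ⊆ ball 0 R := by
      apply ball_subset_ball'
      rw [mem_ball] at hz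
      linarith
    have h1 := hKb (W := W j) (z := z) (r := R / 2) (by positivity) ((hW j).mono hsub)
      ((hi3 j).mono_set hsub)
    refine h1.trans ?_
    gcongr
    refine le_trans ?_ (hsmall j)
    refine setIntegral_mono_set (hi3 j) ?_ hsub.eventuallyLE
    filter_upwards with w
    exact sq_nonneg _
  have hlim : TendstoUniformlyOn (fun j z => V z - W j z) V atTop (ball 0 (R / 2)) := by
    rw [Metric.tendstoUniformlyOn_iff]
    intro ε hε
    have h1 : Tendsto (fun j : ℕ => K / (R / 2) ^ 2 * ((|C| + 1) * (1 / ((j : ℝ) + 1)))) atTop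
        (𝓝 (K / (R / 2) ^ 2 * ((|C| + 1) * 0))) :=
      ((tendsto_one_div_add_atTop_nhds_zero_nat).const_mul _).const_mul _
    rw [mul_zero, mul_zero] at h1
    filter_upwards [h1.eventually (gt_mem_nhds (show (0 : ℝ) < ε ^ 2 by positivity))] with j hj z hz
    have h2 := hbd j z hz
    rw [dist_eq_norm, sub_sub_cancel]
    exact lt_of_pow_lt_pow_left₀ 2 hε.le (h2.trans_lt hj)
  refine GP.closed hw hR (r := R / 2) (by positivity) (F := fun j z => V z - W j z) (fun j => ?_)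
    (fun j => ?_) hlim
  · exact ((hV.sub (hW j)).mono (ball_subset_ball (by linarith)))
  · have h1 := (hWP j).smul hw hR (a := fun _ => (-1 : ℂ)) analyticAt_const
    simpa using h1

end module

end Vale.Agent.P253.R2.H957
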